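import Vale.Agent.P154.D8.K4.Data
import Vale.Agent.P154.ApxLemma

set_option maxRecDepth 100000

namespace Vale.Agent.P154.D8.K4

open PolyR Cert InT OutT

/-- The quotient polynomial for `j = 1`. -/
noncomputable def S1 (u : ℝ) : ℝ :=
  (465 / 16777216 : ℝ) * u ^ 0 + (1851 / 8388608 : ℝ) * u ^ 1 + (-30915 / 8388608 : ℝ) * u ^ 2 + (-146031 / 16777216 : ℝ) * u ^ 3 + (1386669 / 16777216 : ℝ) * u ^ 4 + (343659 / 16777216 : ℝ) * u ^ 5 + (-8786715 / 16777216 : ℝ) * u ^ 6 + (9114475 / 16777216 : ℝ) * u ^ 7

/-- Certificate polynomial. -/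
def lpu1 : List ITm := [⟨(-4538946996035519987344741821289062500),0,0⟩,⟨175063309670804301276803016662597656250,1,0⟩,⟨(-2051160598176978528499603271484375000000),2,0⟩,⟨(-2925806502173271006417274475097656250000),3,0⟩,⟨16779285780652553020561881866455078125000,4,0⟩,⟨2511472973213252303363781625989257812500,5,0⟩,⟨(-38781754225848334801103319825552898968750),6,0⟩,⟨24295883158735813974875529188280975269117,7,0⟩]

/-- Certificate tree. -/
def tpu1 : OutT := (A (A (A (A (A (O l) (A (O l) (O l))) (A (O l) (O l))) (A (O l) (O l))) (A (A (O l) (O l)) (A (O l) (O l)))) (A (A (A (A (O l) (O l)) (A (A (O l) (O l)) (A (O l) (O l)))) (A (A (A (A (O l) (O l)) (A (O l) (O l))) (A (A (O l) (A (O l) (O l))) (A (A (O l) (O l)) (A (O l) (O l))))) (A (A (A (A (O l) (O l)) (A (O l) (O l))) (A (A (O l) (O l)) (A (O l) (O l)))) (A (A (A (O l) (O l)) (O l)) (A (O l) (O l)))))) (A (A (A (A (A (O l) (O l)) (A (O l) (O l))) (A (O l) (O l))) (A (A (O l) (O l)) (A (O l) (O l)))) (A (A (A (O l) (O l)) (A (O l) (O l))) (A (A (O l) (O l)) (A (A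 (O l) (O l)) (A (O l) (A (O l) (A (O l) (O l))))))))))

theorem hpu1 (x : ℝ) (h0 : 0 ≤ x) (h1 : x ≤ 1) : evalIL lpu1 x 0 ≤ 0 :=
  uni_le 7 65536 lpu1 (by norm_num) (by norm_num) (by decide +kernel)
    (chkOut_sound (uniPb 7 65536 lpu1) tpu1 0 32768 0 32768 (by decide +kernel)) x h0 h1

/-- Certificate polynomial. -/
def lpl1 : List ITm := [⟨(-89121954260917846113443374633789062500),0,0⟩,⟨(-231629698591859778389334678649902343750),1,0⟩,⟨2051160598176978528499603271484375000000,2,0⟩,⟨2925806502173271006417274475097656250000,3,0⟩,⟨(-16779285780652553020561881866455078125000),4,0⟩,⟨(-2511472973213252303363781625989257812500),5,0⟩,⟨38781754225848334801103319825552898968750,6,0⟩,⟨(-24295883158735813974875529188280975269117),7,0⟩]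

/-- Certificate tree. -/
def tpl1 : OutT := (A (A (A (O l) (A (O l) (O l))) (A (A (A (O l) (O l)) (A (A (O l) (O l)) (A (A (O l) (O l)) (A (O l) (O l))))) (A (A (A (A (O l) (O l)) (A (O l) (O l))) (A (O l) (O l))) (A (A (O l) (O l)) (O l))))) (A (A (A (A (O l) (O l)) (A (O l) (O l))) (A (A (O l) (O l)) (A (O l) (O l)))) (A (A (A (A (O l) (O l)) (A (O l) (O l))) (A (A (O l) (O l)) (A (A (O l) (O l)) (A (O l) (O l))))) (A (A (A (A (O l) (A (O l) (O l))) (A (A (O l) (O l)) (A (O l) (O l)))) (A (A (A (A (O l) (O l)) (A (O l) (O l))) (A (A (O l) (O l)) (A (O l) (O l)))) (A (A (A (O l) (O l)) (A (O l) (O l))) (A (A (O l) (O l)) (O l))))) (A (A (A (A (O l) (O l)) (A (O l) (O l))) (A (O l) (O l))) (A (A (O l) (O l)) (O l)))))))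

theorem hpl1 (x : ℝ) (h0 : 0 ≤ x) (h1 : x ≤ 1) : evalIL lpl1 x 0 ≤ 0 :=
  uni_le 7 65536 lpl1 (by norm_num) (by norm_num) (by decide +kernel)
    (chkOut_sound (uniPb 7 65536 lpl1) tpl1 0 32768 0 32768 (by decide +kernel)) x h0 h1

/-- Certificate polynomial. -/
def lnu1 : List ITm := [⟨(-580985215492546558380126953125000000000),0,0⟩,⟨(-11204051818931475281715393066406250000000),1,0⟩,⟨(-65637139141663312911987304687500000000000),2,0⟩,⟨46812904034772336102676391601562500000000,3,0⟩,⟨134234286245220424164495054931640625000000,4,0⟩,⟨(-10045891892853009213455126503957031250000),5,0⟩,⟨(-77563508451696669602206639651105797937500),6,0⟩,⟨(-24295883158735813974875529188280975269117),7,0⟩]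

/-- Certificate tree. -/
def tnu1 : OutT := (A (A (A (O l) (O l)) (O l)) (A (A (O l) (A (O l) (O l))) (A (A (A (O l) (O l)) (A (A (O l) (O l)) (A (O l) (A (O l) (O l))))) (A (A (A (A (O l) (O l)) (O l)) (A (O l) (O l))) (A (O l) (O l))))))

theorem hnu1 (x : ℝ) (h0 : 0 ≤ x) (h1 : x ≤ 1) : evalIL lnu1 x 0 ≤ 0 :=
  uni_le 7 65536 lnu1 (by norm_num) (by norm_num) (by decide +kernel)
    (chkOut_sound (uniPb 7 65536 lnu1) tnu1 0 32768 0 32768 (by decide +kernel)) x h0 h1

/-- Certificate polynomial. -/
def lnl1 : List ITm := [⟨(-11407610145397484302520751953125000000000),0,0⟩,⟨14824300709879025816917419433593750000000,1,0⟩,⟨65637139141663312911987304687500000000000,2,0⟩,⟨(-46812904034772336102676391601562500000000),3,0⟩,⟨(-134234286245220424164495054931640625000000),4,0⟩,⟨10045891892853009213455126503957031250000,5,0⟩,⟨77563508451696669602206639651105797937500,6,0⟩,⟨24295883158735813974875529188280975269117,7,0⟩]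

/-- Certificate tree. -/
def tnl1 : OutT := (A (A (O l) (A (O l) (A (O l) (A (O l) (A (O l) (O l)))))) (A (A (A (A (A (O l) (O l)) (O l)) (A (O l) (O l))) (A (O l) (O l))) (A (O l) (A (O l) (A (O l) (A (O l) (A (O l) (O l))))))))

theorem hnl1 (x : ℝ) (h0 : 0 ≤ x) (h1 : x ≤ 1) : evalIL lnl1 x 0 ≤ 0 :=
  uni_le 7 65536 lnl1 (by norm_num) (by norm_num) (by decide +kernel)
    (chkOut_sound (uniPb 7 65536 lnl1) tnl1 0 32768 0 32768 (by decide +kernel)) x h0 h1

theorem apx1 (u : ℝ) (h0 : -(94367 / 312500 : ℝ) ≤ u) (h1 : u ≤ 2 * (94367 / 312500 : ℝ)) :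
    |((1 + u)⁻¹) ^ 1 - evalZ Ax.p1 (3 * u) / Ax.D1| ≤ Ax.e1 * |u| ^ Ax.m1 := by
  have hu : 0 < 1 + u := by norm_num at h0 ⊢; linarith
  refine apx_of_S 1 2 _ (S1 u) _ u hu ?_ ?_ ?_
  · simp only [Ax, evalZ_cons, evalZ_nil, S1]
    push_cast
    ring
  · rcases le_total 0 u with hs | hs
    · have hx := hpu1 (u / (2 * (94367 / 312500 : ℝ))) (by positivity) (by rw [div_le_one (by norm_num)]; exact h1)
      have e : evalIL lpu1 (u / (2 * (94367 / 312500 : ℝ))) 0 = 1525878906250000000000000000000000000000000 * (S1 u - Ax.e1 * (1 + u) ^ 1) := by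
        simp only [lpu1, evalIL, List.map_cons, List.map_nil, List.sum_cons, List.sum_nil, S1, Ax]
        push_cast
        ring
      rw [e] at hx
      have := cmul_nonpos (by norm_num) hx
      simp only [Ax] at this ⊢
      linarith
    · have hx := hnu1 (-u / (94367 / 312500 : ℝ)) (by apply div_nonneg <;> [linarith; norm_num]) (by rw [div_le_one (by norm_num)]; linarith)
      have e : evalIL lnu1 (-u / (94367 / 312500 : ℝ)) 0 = 195312500000000000000000000000000000000000000 * (S1 u - Ax.e1 * (1 + u) ^ 1) := by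
        simp only [lnu1, evalIL, List.map_cons, List.map_nil, List.sum_cons, List.sum_nil, S1, Ax]
        push_cast
        ring
      rw [e] at hx
      have := cmul_nonpos (by norm_num) hx
      simp only [Ax] at this ⊢
      linarith
  · rcases le_total 0 u with hs | hs
    · have hx := hpl1 (u / (2 * (94367 / 312500 : ℝ))) (by positivity) (by rw [div_le_one (by norm_num)]; exact h1)
      have e : evalIL lpl1 (u / (2 * (94367 / 312500 : ℝ))) 0 = 1525878906250000000000000000000000000000000 * (-S1 u - Ax.e1 * (1 + u) ^ 1) := by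
        simp only [lpl1, evalIL, List.map_cons, List.map_nil, List.sum_cons, List.sum_nil, S1, Ax]
        push_cast
        ring
      rw [e] at hx
      have := cmul_nonpos (by norm_num) hx
      simp only [Ax] at this ⊢
      linarith
    · have hx := hnl1 (-u / (94367 / 312500 : ℝ)) (by apply div_nonneg <;> [linarith; norm_num]) (by rw [div_le_one (by norm_num)]; linarith)
      have e : evalIL lnl1 (-u / (94367 / 312500 : ℝ)) 0 = 195312500000000000000000000000000000000000000 * (-S1 u - Ax.e1 * (1 + u) ^ 1) := by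
        simp only [lnl1, evalIL, List.map_cons, List.map_nil, List.sum_cons, List.sum_nil, S1, Ax]
        push_cast
        ring
      rw [e] at hx
      have := cmul_nonpos (by norm_num) hx
      simp only [Ax] at this ⊢
      linarith

/-- The quotient polynomial for `j = 2`. -/
noncomputable def S2 (u : ℝ) : ℝ :=
  (4599 / 16777216 : ℝ) * u ^ 0 + (18783 / 8388608 : ℝ) * u ^ 1 + (-580411 / 16777216 : ℝ) * u ^ 2 + (-470965 / 4194304 : ℝ) * u ^ 3 + (12372409 / 16777216 : ℝ) * u ^ 4 + (14847819 / 16777216 : ℝ) * u ^ 5 + (-82816113 / 16777216 : ℝ) * u ^ 6 + (12796777 / 16777216 : ℝ) * u ^ 7 + (40020301 / 8388608 : ℝ) * u ^ 8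

/-- Certificate polynomial. -/
def lpu2 : List ITm := [⟨(-145045087052153576223645359277725219726562500),0,0⟩,⟨5911600627612756397866178303956985473632812500,1,0⟩,⟨(-75862425192002283665715367533266544342041015625),2,0⟩,⟨(-147437921924115703551098704338073730468750000000),3,0⟩,⟨584810238167073151290793948769569396972656250000,4,0⟩,⟨423861027229006199205627443581134796142578125000,5,0⟩,⟨(-1427827647826364865768772204752132004321289062500),6,0⟩,⟨133248297522792476626278936535112526135198593750,7,0⟩,⟨503351695766070612476419495299929935670698160282,8,0⟩]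

/-- Certificate tree. -/
def tpu2 : OutT := (A (A (A (A (A (A (O l) (O l)) (A (O l) (O l))) (A (O l) (O l))) (A (O l) (O l))) (A (A (O l) (O l)) (A (O l) (O l)))) (A (A (A (A (O l) (O l)) (A (O l) (A (O l) (O l)))) (A (A (A (O l) (A (O l) (O l))) (A (A (O l) (A (O l) (O l))) (A (A (O l) (O l)) (A (O l) (O l))))) (A (A (A (A (O l) (O l)) (A (O l) (O l))) (A (A (O l) (O l)) (A (O l) (O l)))) (A (A (O l) (O l)) (A (O l) (O l)))))) (A (A (A (A (A (O l) (O l)) (O l)) (A (O l) (O l))) (A (A (O l) (O l)) (A (O l) (O l)))) (A (A (O l) (O l)) (A (A (O l) (O l)) (A (O l) (A (O l) (A (O l) (A (O l) (O l))))))))))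

theorem hpu2 (x : ℝ) (h0 : 0 ≤ x) (h1 : x ≤ 1) : evalIL lpu2 x 0 ≤ 0 :=
  uni_le 8 65536 lpu2 (by norm_num) (by norm_num) (by decide +kernel)
    (chkOut_sound (uniPb 8 65536 lpu2) tpu2 0 32768 0 32768 (by decide +kernel)) x h0 h1

/-- Certificate polynomial. -/
def lpl2 : List ITm := [⟨(-3412831128812854331044945865869522094726562500),0,0⟩,⟨(-10209150769853181373036932200193405151367187500),1,0⟩,⟨74564675066329316678093164227902889251708984375,2,0⟩,⟨147437921924115703551098704338073730468750000000,3,0⟩,⟨(-584810238167073151290793948769569396972656250000),4,0⟩,⟨(-423861027229006199205627443581134796142578125000),5,0⟩,⟨1427827647826364865768772204752132004321289062500,6,0⟩,⟨(-133248297522792476626278936535112526135198593750),7,0⟩,⟨(-503351695766070612476419495299929935670698160282),8,0⟩]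

/-- Certificate tree. -/
def tpl2 : OutT := (A (A (A (O l) (A (O l) (O l))) (A (A (A (O l) (O l)) (A (A (O l) (O l)) (A (A (O l) (O l)) (A (O l) (O l))))) (A (A (A (A (O l) (O l)) (A (O l) (O l))) (A (O l) (O l))) (A (A (O l) (O l)) (O l))))) (A (A (A (A (O l) (O l)) (A (O l) (O l))) (A (A (O l) (O l)) (A (O l) (O l)))) (A (A (A (O l) (A (O l) (O l))) (A (A (O l) (O l)) (A (O l) (A (O l) (O l))))) (A (A (A (A (O l) (O l)) (A (A (O l) (O l)) (A (O l) (O l)))) (A (A (A (O l) (A (O l) (O l))) (A (A (O l) (O l)) (A (O l) (O l)))) (A (A (A (O l) (O l)) (O l)) (A (O l) (O l))))) (A (A (A (A (O l) (O l)) (O l)) (A (O l) (O l))) (A (O l) (O l)))))))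

theorem hpl2 (x : ℝ) (h0 : 0 ≤ x) (h1 : x ≤ 1) : evalIL lpl2 x 0 ≤ 0 :=
  uni_le 8 65536 lpl2 (by norm_num) (by norm_num) (by decide +kernel)
    (chkOut_sound (uniPb 8 65536 lpl2) tpl2 0 32768 0 32768 (by decide +kernel)) x h0 h1

/-- Certificate polynomial. -/
def lnu2 : List ITm := [⟨(-18565771142675657756626605987548828125000000000),0,0⟩,⟨(-378342440167216409463435411453247070312500000000),1,0⟩,⟨(-2427597606144073077302891761064529418945312500000),2,0⟩,⟨2359006750785851256817579269409179687500000000000,3,0⟩,⟨4678481905336585210326351590156555175781250000000,4,0⟩,⟨(-1695444108916024796822509774324539184570312500000),5,0⟩,⟨(-2855655295652729731537544409504264008642578125000),6,0⟩,⟨(-133248297522792476626278936535112526135198593750),7,0⟩,⟨251675847883035306238209747649964967835349080141,8,0⟩]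

/-- Certificate tree. -/
def tnu2 : OutT := (A (A (A (A (O l) (O l)) (O l)) (O l)) (A (A (O l) (A (O l) (O l))) (A (A (A (O l) (O l)) (A (A (O l) (O l)) (A (A (O l) (O l)) (A (O l) (O l))))) (A (A (A (A (O l) (O l)) (O l)) (A (O l) (O l))) (A (O l) (O l))))))

theorem hnu2 (x : ℝ) (h0 : 0 ≤ x) (h1 : x ≤ 1) : evalIL lnu2 x 0 ≤ 0 :=
  uni_le 8 65536 lnu2 (by norm_num) (by norm_num) (by decide +kernel)
    (chkOut_sound (uniPb 8 65536 lnu2) tnu2 0 32768 0 32768 (by decide +kernel)) x h0 h1

/-- Certificate polynomial. -/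
def lnl2 : List ITm := [⟨(-436842384488045354373753070831298828125000000000),0,0⟩,⟨653385649270603607874363660812377929687500000000,1,0⟩,⟨2386069602122538133698981255292892456054687500000,2,0⟩,⟨(-2359006750785851256817579269409179687500000000000),3,0⟩,⟨(-4678481905336585210326351590156555175781250000000),4,0⟩,⟨1695444108916024796822509774324539184570312500000,5,0⟩,⟨2855655295652729731537544409504264008642578125000,6,0⟩,⟨133248297522792476626278936535112526135198593750,7,0⟩,⟨(-251675847883035306238209747649964967835349080141),8,0⟩]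

/-- Certificate tree. -/
def tnl2 : OutT := (A (A (O l) (A (O l) (A (O l) (A (O l) (A (O l) (O l)))))) (A (A (A (A (A (O l) (O l)) (O l)) (A (O l) (O l))) (A (O l) (O l))) (A (A (O l) (O l)) (A (O l) (A (O l) (A (O l) (A (O l) (O l))))))))

theorem hnl2 (x : ℝ) (h0 : 0 ≤ x) (h1 : x ≤ 1) : evalIL lnl2 x 0 ≤ 0 :=
  uni_le 8 65536 lnl2 (by norm_num) (by norm_num) (by decide +kernel)
    (chkOut_sound (uniPb 8 65536 lnl2) tnl2 0 32768 0 32768 (by decide +kernel)) x h0 h1

theorem apx2 (u : ℝ) (h0 : -(94367 / 312500 : ℝ) ≤ u) (h1 : u ≤ 2 * (94367 / 312500 : ℝ)) :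
    |((1 + u)⁻¹) ^ 2 - evalZ Ax.p2 (3 * u) / Ax.D2| ≤ Ax.e2 * |u| ^ Ax.m2 := by
  have hu : 0 < 1 + u := by norm_num at h0 ⊢; linarith
  refine apx_of_S 2 2 _ (S2 u) _ u hu ?_ ?_ ?_
  · simp only [Ax, evalZ_cons, evalZ_nil, S2]
    push_cast
    ring
  · rcases le_total 0 u with hs | hs
    · have hx := hpu2 (u / (2 * (94367 / 312500 : ℝ))) (by positivity) (by rw [div_le_one (by norm_num)]; exact h1)
      have e : evalIL lpu2 (u / (2 * (94367 / 312500 : ℝ))) 0 = 5960464477539062500000000000000000000000000000000 * (S2 u - Ax.e2 * (1 + u) ^ 2) := by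
        simp only [lpu2, evalIL, List.map_cons, List.map_nil, List.sum_cons, List.sum_nil, S2, Ax]
        push_cast
        ring
      rw [e] at hx
      have := cmul_nonpos (by norm_num) hx
      simp only [Ax] at this ⊢
      linarith
    · have hx := hnu2 (-u / (94367 / 312500 : ℝ)) (by apply div_nonneg <;> [linarith; norm_num]) (by rw [div_le_one (by norm_num)]; linarith)
      have e : evalIL lnu2 (-u / (94367 / 312500 : ℝ)) 0 = 762939453125000000000000000000000000000000000000000 * (S2 u - Ax.e2 * (1 + u) ^ 2) := by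
        simp only [lnu2, evalIL, List.map_cons, List.map_nil, List.sum_cons, List.sum_nil, S2, Ax]
        push_cast
        ring
      rw [e] at hx
      have := cmul_nonpos (by norm_num) hx
      simp only [Ax] at this ⊢
      linarith
  · rcases le_total 0 u with hs | hs
    · have hx := hpl2 (u / (2 * (94367 / 312500 : ℝ))) (by positivity) (by rw [div_le_one (by norm_num)]; exact h1)
      have e : evalIL lpl2 (u / (2 * (94367 / 312500 : ℝ))) 0 = 5960464477539062500000000000000000000000000000000 * (-S2 u - Ax.e2 * (1 + u) ^ 2) := by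
        simp only [lpl2, evalIL, List.map_cons, List.map_nil, List.sum_cons, List.sum_nil, S2, Ax]
        push_cast
        ring
      rw [e] at hx
      have := cmul_nonpos (by norm_num) hx
      simp only [Ax] at this ⊢
      linarith
    · have hx := hnl2 (-u / (94367 / 312500 : ℝ)) (by apply div_nonneg <;> [linarith; norm_num]) (by rw [div_le_one (by norm_num)]; linarith)
      have e : evalIL lnl2 (-u / (94367 / 312500 : ℝ)) 0 = 762939453125000000000000000000000000000000000000000 * (-S2 u - Ax.e2 * (1 + u) ^ 2) := by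
        simp only [lnl2, evalIL, List.map_cons, List.map_nil, List.sum_cons, List.sum_nil, S2, Ax]
        push_cast
        ring
      rw [e] at hx
      have := cmul_nonpos (by norm_num) hx
      simp only [Ax] at this ⊢
      linarith

/-- The quotient polynomial for `j = 3`. -/
noncomputable def S3 (u : ℝ) : ℝ :=
  (867 / 4194304 : ℝ) * u ^ 0 + (379425 / 4194304 : ℝ) * u ^ 1 + (3399259 / 16777216 : ℝ) * u ^ 2 + (-11712103 / 4194304 : ℝ) * u ^ 3 + (-32918207 / 8388608 : ℝ) * u ^ 4 + (21738279 / 1048576 : ℝ) * u ^ 5 + (195782747 / 16777216 : ℝ) * u ^ 6 + (-15731373 / 524288 : ℝ) * u ^ 7 + (-87762115 / 4194304 : ℝ) * u ^ 8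

/-- Certificate polynomial. -/
def lpu3 : List ITm := [⟨(-14933967396046909925644285976886749267578125000),0,0⟩,⟨102307563305529924946313258260488510131835937500,1,0⟩,⟨159318543936371387917461106553673744201660156250,2,0⟩,⟨(-1470011115175227010884323972277343273162841796875),3,0⟩,⟨(-1244763536394764484642088531017303466796875000000),4,0⟩,⟨3971604133215571618080315332992016601562500000000,5,0⟩,⟨1350191449502075966518720766639307777763671875000,6,0⟩,⟨(-2096706614119251509809284562375974758624358000000),7,0⟩,⟨(-883056015181233188431560522940682740117809989944),8,0⟩]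

/-- Certificate tree. -/
def tpu3 : OutT := (A (A (A (A (O l) (O l)) (A (A (O l) (A (O l) (O l))) (A (A (O l) (O l)) (O l)))) (A (A (A (O l) (O l)) (O l)) (A (O l) (O l)))) (A (A (A (O l) (O l)) (A (O l) (O l))) (A (A (A (O l) (O l)) (A (A (O l) (O l)) (A (A (O l) (O l)) (A (O l) (O l))))) (A (A (A (A (A (O l) (O l)) (A (O l) (O l))) (A (A (O l) (O l)) (O l))) (A (A (O l) (O l)) (O l))) (A (A (O l) (O l)) (O l))))))

theorem hpu3 (x : ℝ) (h0 : 0 ≤ x) (h1 : x ≤ 1) : evalIL lpu3 x 0 ≤ 0 :=
  uni_le 8 65536 lpu3 (by norm_num) (by norm_num) (by decide +kernel)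
    (chkOut_sound (uniPb 8 65536 lpu3) tpu3 0 32768 0 32768 (by decide +kernel)) x h0 h1

/-- Certificate polynomial. -/
def lpl3 : List ITm := [⟨(-15919632279093320903484709560871124267578125000),0,0⟩,⟨(-158209546803973921669239643961191177368164062500),1,0⟩,⟨(-193080479787876441605476429685950279235839843750),2,0⟩,⟨1463214288294162525761386496014893054962158203125,3,0⟩,⟨1244763536394764484642088531017303466796875000000,4,0⟩,⟨(-3971604133215571618080315332992016601562500000000),5,0⟩,⟨(-1350191449502075966518720766639307777763671875000),6,0⟩,⟨2096706614119251509809284562375974758624358000000,7,0⟩,⟨883056015181233188431560522940682740117809989944,8,0⟩]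

/-- Certificate tree. -/
def tpl3 : OutT := (A (A (A (O l) (O l)) (A (O l) (A (O l) (A (O l) (O l))))) (A (A (A (A (O l) (A (O l) (O l))) (A (A (A (O l) (O l)) (A (O l) (O l))) (A (A (O l) (O l)) (O l)))) (A (A (A (O l) (O l)) (O l)) (A (O l) (O l)))) (A (A (A (O l) (O l)) (O l)) (A (O l) (A (O l) (A (O l) (A (O l) (A (O l) (O l)))))))))

theorem hpl3 (x : ℝ) (h0 : 0 ≤ x) (h1 : x ≤ 1) : evalIL lpl3 x 0 ≤ 0 :=
  uni_le 8 65536 lpl3 (by norm_num) (by norm_num) (by decide +kernel)
    (chkOut_sound (uniPb 8 65536 lpl3) tpl3 0 32768 0 32768 (by decide +kernel)) x h0 h1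

/-- Certificate polynomial. -/
def lnu3 : List ITm := [⟨(-477886956673501117620617151260375976562500000000),0,0⟩,⟨(-1636921012888478799141012132167816162109375000000),1,0⟩,⟨1274548351490971103339688852429389953613281250000,2,0⟩,⟨5880044460700908043537295889109373092651367187500,3,0⟩,⟨(-2489527072789528969284177062034606933593750000000),4,0⟩,⟨(-3971604133215571618080315332992016601562500000000),5,0⟩,⟨675095724751037983259360383319653888881835937500,6,0⟩,⟨524176653529812877452321140593993689656089500000,7,0⟩,⟨(-110382001897654148553945065367585342514726248743),8,0⟩]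

/-- Certificate tree. -/
def tnu3 : OutT := (A (O l) (A (A (O l) (A (O l) (O l))) (A (A (A (O l) (A (O l) (O l))) (A (A (O l) (O l)) (A (O l) (O l)))) (A (A (O l) (O l)) (O l)))))

theorem hnu3 (x : ℝ) (h0 : 0 ≤ x) (h1 : x ≤ 1) : evalIL lnu3 x 0 ≤ 0 :=
  uni_le 8 65536 lnu3 (by norm_num) (by norm_num) (by decide +kernel)
    (chkOut_sound (uniPb 8 65536 lnu3) tnu3 0 32768 0 32768 (by decide +kernel)) x h0 h1

/-- Certificate polynomial. -/
def lnl3 : List ITm := [⟨(-509428232930986268911510705947875976562500000000),0,0⟩,⟨2531352748863582746707834303379058837890625000000,1,0⟩,⟨(-1544643838303011532843811437487602233886718750000),2,0⟩,⟨(-5852857153176650103045545984059572219848632812500),3,0⟩,⟨2489527072789528969284177062034606933593750000000,4,0⟩,⟨3971604133215571618080315332992016601562500000000,5,0⟩,⟨(-675095724751037983259360383319653888881835937500),6,0⟩,⟨(-524176653529812877452321140593993689656089500000),7,0⟩,⟨110382001897654148553945065367585342514726248743,8,0⟩]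

/-- Certificate tree. -/
def tnl3 : OutT := (A (A (A (O l) (O l)) (A (A (A (O l) (O l)) (A (O l) (O l))) (A (A (O l) (O l)) (O l)))) (A (A (A (O l) (O l)) (O l)) (A (O l) (A (O l) (A (O l) (A (O l) (A (O l) (O l))))))))

theorem hnl3 (x : ℝ) (h0 : 0 ≤ x) (h1 : x ≤ 1) : evalIL lnl3 x 0 ≤ 0 :=
  uni_le 8 65536 lnl3 (by norm_num) (by norm_num) (by decide +kernel)
    (chkOut_sound (uniPb 8 65536 lnl3) tnl3 0 32768 0 32768 (by decide +kernel)) x h0 h1

theorem apx3 (u : ℝ) (h0 : -(94367 / 312500 : ℝ) ≤ u) (h1 : u ≤ 2 * (94367 / 312500 : ℝ)) :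
    |((1 + u)⁻¹) ^ 3 - evalZ Ax.p3 (3 * u) / Ax.D3| ≤ Ax.e3 * |u| ^ Ax.m3 := by
  have hu : 0 < 1 + u := by norm_num at h0 ⊢; linarith
  refine apx_of_S 3 2 _ (S3 u) _ u hu ?_ ?_ ?_
  · simp only [Ax, evalZ_cons, evalZ_nil, S3]
    push_cast
    ring
  · rcases le_total 0 u with hs | hs
    · have hx := hpu3 (u / (2 * (94367 / 312500 : ℝ))) (by positivity) (by rw [div_le_one (by norm_num)]; exact h1)
      have e : evalIL lpu3 (u / (2 * (94367 / 312500 : ℝ))) 0 = 2384185791015625000000000000000000000000000000000 * (S3 u - Ax.e3 * (1 + u) ^ 3) := by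
        simp only [lpu3, evalIL, List.map_cons, List.map_nil, List.sum_cons, List.sum_nil, S3, Ax]
        push_cast
        ring
      rw [e] at hx
      have := cmul_nonpos (by norm_num) hx
      simp only [Ax] at this ⊢
      linarith
    · have hx := hnu3 (-u / (94367 / 312500 : ℝ)) (by apply div_nonneg <;> [linarith; norm_num]) (by rw [div_le_one (by norm_num)]; linarith)
      have e : evalIL lnu3 (-u / (94367 / 312500 : ℝ)) 0 = 76293945312500000000000000000000000000000000000000 * (S3 u - Ax.e3 * (1 + u) ^ 3) := by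
        simp only [lnu3, evalIL, List.map_cons, List.map_nil, List.sum_cons, List.sum_nil, S3, Ax]
        push_cast
        ring
      rw [e] at hx
      have := cmul_nonpos (by norm_num) hx
      simp only [Ax] at this ⊢
      linarith
  · rcases le_total 0 u with hs | hs
    · have hx := hpl3 (u / (2 * (94367 / 312500 : ℝ))) (by positivity) (by rw [div_le_one (by norm_num)]; exact h1)
      have e : evalIL lpl3 (u / (2 * (94367 / 312500 : ℝ))) 0 = 2384185791015625000000000000000000000000000000000 * (-S3 u - Ax.e3 * (1 + u) ^ 3) := by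
        simp only [lpl3, evalIL, List.map_cons, List.map_nil, List.sum_cons, List.sum_nil, S3, Ax]
        push_cast
        ring
      rw [e] at hx
      have := cmul_nonpos (by norm_num) hx
      simp only [Ax] at this ⊢
      linarith
    · have hx := hnl3 (-u / (94367 / 312500 : ℝ)) (by apply div_nonneg <;> [linarith; norm_num]) (by rw [div_le_one (by norm_num)]; linarith)
      have e : evalIL lnl3 (-u / (94367 / 312500 : ℝ)) 0 = 76293945312500000000000000000000000000000000000000 * (-S3 u - Ax.e3 * (1 + u) ^ 3) := by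
        simp only [lnl3, evalIL, List.map_cons, List.map_nil, List.sum_cons, List.sum_nil, S3, Ax]
        push_cast
        ring
      rw [e] at hx
      have := cmul_nonpos (by norm_num) hx
      simp only [Ax] at this ⊢
      linarith

/-- The quotient polynomial for `j = 4`. -/
noncomputable def S4 (u : ℝ) : ℝ :=
  (-632855 / 8388608 : ℝ) * u ^ 0 + (1864653 / 16777216 : ℝ) * u ^ 1 + (6535067 / 1048576 : ℝ) * u ^ 2 + (62423999 / 8388608 : ℝ) * u ^ 3 + (-954230441 / 16777216 : ℝ) * u ^ 4 + (-1097056999 / 16777216 : ℝ) * u ^ 5 + (716949211 / 8388608 : ℝ) * u ^ 6 + (622441607 / 4194304 : ℝ) * u ^ 7 + (919681521 / 16777216 : ℝ) * u ^ 8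

/-- Certificate polynomial. -/
def lpu4 : List ITm := [⟨(-3821104832546495799761032685637474060058593750000),0,0⟩,⟨(-3285396722176869843679014593362808227539062500000),1,0⟩,⟨49772777392572492890394642017781734466552734375000,2,0⟩,⟨37302182141443410099091357551515102386474609375000,3,0⟩,⟨(-180684620495693890689882312785349786281585693359375),4,0⟩,⟨(-125270844566440586769793416034277236938476562500000),5,0⟩,⟨98887027509064392385674236185006315480273437500000,6,0⟩,⟨103700216940688822854405917598990999303555902500000,7,0⟩,⟨23134421360802312859951506015484087160217002824644,8,0⟩]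

/-- Certificate tree. -/
def tpu4 : OutT := (A (A (O l) (A (A (O l) (A (O l) (O l))) (A (A (A (O l) (O l)) (A (O l) (O l))) (A (O l) (O l))))) (A (A (A (O l) (O l)) (A (O l) (O l))) (A (O l) (A (O l) (A (O l) (A (O l) (A (O l) (O l))))))))

theorem hpu4 (x : ℝ) (h0 : 0 ≤ x) (h1 : x ≤ 1) : evalIL lpu4 x 0 ≤ 0 :=
  uni_le 8 65536 lpu4 (by norm_num) (by norm_num) (by decide +kernel)
    (chkOut_sound (uniPb 8 65536 lpu4) tpu4 0 32768 0 32768 (by decide +kernel)) x h0 h1

/-- Certificate polynomial. -/
def lpl4 : List ITm := [⟨(-223740648230830174725269898772239685058593750000),0,0⟩,⟨(-6486121575026686514320317655801773071289062500000),1,0⟩,⟨(-58625022517233689717613742686808109283447265625000),2,0⟩,⟨(-40866384021673396919333213008940219879150390625000),3,0⟩,⟨180146471633563229623857091707028448581695556640625,4,0⟩,⟨125270844566440586769793416034277236938476562500000,5,0⟩,⟨(-98887027509064392385674236185006315480273437500000),6,0⟩,⟨(-103700216940688822854405917598990999303555902500000),7,0⟩,⟨(-23134421360802312859951506015484087160217002824644),8,0⟩]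

/-- Certificate tree. -/
def tpl4 : OutT := (A (A (A (A (O l) (O l)) (O l)) (A (O l) (O l))) (A (A (O l) (A (O l) (O l))) (A (A (A (O l) (A (O l) (O l))) (A (A (A (O l) (O l)) (A (O l) (O l))) (A (O l) (O l)))) (A (A (O l) (O l)) (O l)))))

theorem hpl4 (x : ℝ) (h0 : 0 ≤ x) (h1 : x ≤ 1) : evalIL lpl4 x 0 ≤ 0 :=
  uni_le 8 65536 lpl4 (by norm_num) (by norm_num) (by decide +kernel)
    (chkOut_sound (uniPb 8 65536 lpl4) tpl4 0 32768 0 32768 (by decide +kernel)) x h0 h1

/-- Certificate polynomial. -/
def lnu4 : List ITm := [⟨(-244550709282975731184706091880798339843750000000000),0,0⟩,⟨105132695109659834997728466987609863281250000000000,1,0⟩,⟨796364438281159886246314272284507751464843750000000,2,0⟩,⟨(-298417457131547280792730860412120819091796875000000),3,0⟩,⟨(-722738481982775562759529251141399145126342773437500),4,0⟩,⟨250541689132881173539586832068554473876953125000000,5,0⟩,⟨98887027509064392385674236185006315480273437500000,6,0⟩,⟨(-51850108470344411427202958799495499651777951250000),7,0⟩,⟨5783605340200578214987876503871021790054250706161,8,0⟩]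

/-- Certificate tree. -/
def tnu4 : OutT := (A (A (O l) (O l)) (A (A (O l) (A (O l) (A (O l) (O l)))) (A (A (A (A (O l) (O l)) (A (O l) (O l))) (A (O l) (O l))) (A (O l) (O l)))))

theorem hnu4 (x : ℝ) (h0 : 0 ≤ x) (h1 : x ≤ 1) : evalIL lnu4 x 0 ≤ 0 :=
  uni_le 8 65536 lnu4 (by norm_num) (by norm_num) (by decide +kernel)
    (chkOut_sound (uniPb 8 65536 lnu4) tnu4 0 32768 0 32768 (by decide +kernel)) x h0 h1

/-- Certificate polynomial. -/
def lnl4 : List ITm := [⟨(-14319401486773131182417273521423339843750000000000),0,0⟩,⟨207555890400853968458250164985656738281250000000000,1,0⟩,⟨(-938000360275739035481819882988929748535156250000000),2,0⟩,⟨326931072173387175354665704071521759033203125000000,3,0⟩,⟨720585886534252918495428366828113794326782226562500,4,0⟩,⟨(-250541689132881173539586832068554473876953125000000),5,0⟩,⟨(-98887027509064392385674236185006315480273437500000),6,0⟩,⟨51850108470344411427202958799495499651777951250000,7,0⟩,⟨(-5783605340200578214987876503871021790054250706161),8,0⟩]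

/-- Certificate tree. -/
def tnl4 : OutT := (A (A (A (A (O l) (O l)) (A (O l) (O l))) (A (O l) (O l))) (A (O l) (A (O l) (A (O l) (A (O l) (A (O l) (A (O l) (O l))))))))

theorem hnl4 (x : ℝ) (h0 : 0 ≤ x) (h1 : x ≤ 1) : evalIL lnl4 x 0 ≤ 0 :=
  uni_le 8 65536 lnl4 (by norm_num) (by norm_num) (by decide +kernel)
    (chkOut_sound (uniPb 8 65536 lnl4) tnl4 0 32768 0 32768 (by decide +kernel)) x h0 h1

theorem apx4 (u : ℝ) (h0 : -(94367 / 312500 : ℝ) ≤ u) (h1 : u ≤ 2 * (94367 / 312500 : ℝ)) :
    |((1 + u)⁻¹) ^ 4 - evalZ Ax.p4 (3 * u) / Ax.D4| ≤ Ax.e4 * |u| ^ Ax.m4 := by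
  have hu : 0 < 1 + u := by norm_num at h0 ⊢; linarith
  refine apx_of_S 4 2 _ (S4 u) _ u hu ?_ ?_ ?_
  · simp only [Ax, evalZ_cons, evalZ_nil, S4]
    push_cast
    ring
  · rcases le_total 0 u with hs | hs
    · have hx := hpu4 (u / (2 * (94367 / 312500 : ℝ))) (by positivity) (by rw [div_le_one (by norm_num)]; exact h1)
      have e : evalIL lpu4 (u / (2 * (94367 / 312500 : ℝ))) 0 = 23841857910156250000000000000000000000000000000000 * (S4 u - Ax.e4 * (1 + u) ^ 4) := by
        simp only [lpu4, evalIL, List.map_cons, List.map_nil, List.sum_cons, List.sum_nil, S4, Ax]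
        push_cast
        ring
      rw [e] at hx
      have := cmul_nonpos (by norm_num) hx
      simp only [Ax] at this ⊢
      linarith
    · have hx := hnu4 (-u / (94367 / 312500 : ℝ)) (by apply div_nonneg <;> [linarith; norm_num]) (by rw [div_le_one (by norm_num)]; linarith)
      have e : evalIL lnu4 (-u / (94367 / 312500 : ℝ)) 0 = 1525878906250000000000000000000000000000000000000000 * (S4 u - Ax.e4 * (1 + u) ^ 4) := by
        simp only [lnu4, evalIL, List.map_cons, List.map_nil, List.sum_cons, List.sum_nil, S4, Ax]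
        push_cast
        ring
      rw [e] at hx
      have := cmul_nonpos (by norm_num) hx
      simp only [Ax] at this ⊢
      linarith
  · rcases le_total 0 u with hs | hs
    · have hx := hpl4 (u / (2 * (94367 / 312500 : ℝ))) (by positivity) (by rw [div_le_one (by norm_num)]; exact h1)
      have e : evalIL lpl4 (u / (2 * (94367 / 312500 : ℝ))) 0 = 23841857910156250000000000000000000000000000000000 * (-S4 u - Ax.e4 * (1 + u) ^ 4) := by
        simp only [lpl4, evalIL, List.map_cons, List.map_nil, List.sum_cons, List.sum_nil, S4, Ax]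
        push_cast
        ring
      rw [e] at hx
      have := cmul_nonpos (by norm_num) hx
      simp only [Ax] at this ⊢
      linarith
    · have hx := hnl4 (-u / (94367 / 312500 : ℝ)) (by apply div_nonneg <;> [linarith; norm_num]) (by rw [div_le_one (by norm_num)]; linarith)
      have e : evalIL lnl4 (-u / (94367 / 312500 : ℝ)) 0 = 1525878906250000000000000000000000000000000000000000 * (-S4 u - Ax.e4 * (1 + u) ^ 4) := by
        simp only [lnl4, evalIL, List.map_cons, List.map_nil, List.sum_cons, List.sum_nil, S4, Ax]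
        push_cast
        ring
      rw [e] at hx
      have := cmul_nonpos (by norm_num) hx
      simp only [Ax] at this ⊢
      linarith

/-- The quotient polynomial for `j = 5`. -/
noncomputable def S5 (u : ℝ) : ℝ :=
  (-1712373 / 8388608 : ℝ) * u ^ 0 + (1021519 / 4194304 : ℝ) * u ^ 1 + (148905955 / 8388608 : ℝ) * u ^ 2 + (144174933 / 4194304 : ℝ) * u ^ 3 + (-2389217011 / 16777216 : ℝ) * u ^ 4 + (-5354226221 / 16777216 : ℝ) * u ^ 5 + (83381331 / 1048576 : ℝ) * u ^ 6 + (5262045565 / 8388608 : ℝ) * u ^ 7 + (8829535511 / 16777216 : ℝ) * u ^ 8 + (2334933459 / 16777216 : ℝ) * u ^ 9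

/-- Certificate polynomial. -/
def lpu5 : List ITm := [⟨(-409143999929861834630173689220100641250610351562500000),0,0⟩,⟨(-524432448753731073054495936958119273185729980468750000),1,0⟩,⟨5231142807203403616256309760501608252525329589843750000,2,0⟩,⟨6569780375360861818828076138743199408054351806640625000,3,0⟩,⟨(-17791302132330027090751956721424357965588569641113281250),4,0⟩,⟨(-23899977647959049311736960023409154377877712249755859375),5,0⟩,⟨3593931343842518888789086390351274141784667968750000000,6,0⟩,⟨17122441578053468024768005071890009270636767333984375000,7,0⟩,⟨8675990609054789510520207575172732651861596381523593750,8,0⟩,⟨1385657340997156429915342121567337644498337547147976973,9,0⟩]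

/-- Certificate tree. -/
def tpu5 : OutT := (A (A (O l) (A (A (O l) (A (O l) (O l))) (A (A (A (O l) (O l)) (A (O l) (O l))) (A (O l) (O l))))) (A (A (A (O l) (O l)) (A (O l) (O l))) (A (O l) (A (O l) (A (O l) (A (O l) (O l)))))))

theorem hpu5 (x : ℝ) (h0 : 0 ≤ x) (h1 : x ≤ 1) : evalIL lpu5 x 0 ≤ 0 :=
  uni_le 9 65536 lpu5 (by norm_num) (by norm_num) (by decide +kernel)
    (chkOut_sound (uniPb 9 65536 lpu5) tpu5 0 32768 0 32768 (by decide +kernel)) x h0 h1

/-- Certificate polynomial. -/
def lpl5 : List ITm := [⟨(-28920813660571198511206603143364191055297851562500000),0,0⟩,⟨(-798411143697097536175988352624699473381042480468750000),1,0⟩,⟨(-6829002407700137611357149580726400017738342285156250000),2,0⟩,⟨(-7534805763649343719088434227160178124904632568359375000),3,0⟩,⟨17499889169716845742009975243889493867754936218261718750,4,0⟩,⟨23864777946144114163785939778813272751867771148681640625,5,0⟩,⟨(-3593931343842518888789086390351274141784667968750000000),6,0⟩,⟨(-17122441578053468024768005071890009270636767333984375000),7,0⟩,⟨(-8675990609054789510520207575172732651861596381523593750),8,0⟩,⟨(-1385657340997156429915342121567337644498337547147976973),9,0⟩]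

/-- Certificate tree. -/
def tpl5 : OutT := (A (A (A (A (O l) (O l)) (O l)) (A (O l) (O l))) (A (A (O l) (A (O l) (O l))) (A (A (A (O l) (A (O l) (O l))) (A (A (A (O l) (O l)) (A (O l) (O l))) (A (O l) (O l)))) (A (A (O l) (O l)) (O l)))))

theorem hpl5 (x : ℝ) (h0 : 0 ≤ x) (h1 : x ≤ 1) : evalIL lpl5 x 0 ≤ 0 :=
  uni_le 9 65536 lpl5 (by norm_num) (by norm_num) (by decide +kernel)
    (chkOut_sound (uniPb 9 65536 lpl5) tpl5 0 32768 0 32768 (by decide +kernel)) x h0 h1

/-- Certificate polynomial. -/
def lnu5 : List ITm := [⟨(-209481727964089259330648928880691528320312500000000000000),0,0⟩,⟨134254706880955154701950959861278533935546875000000000000,1,0⟩,⟨669586279322035662880807649344205856323242187500000000000,2,0⟩,⟨(-420465944023095156404996872879564762115478515625000000000),3,0⟩,⟨(-569321668234560866904062615085579454898834228515625000000),4,0⟩,⟨382399642367344788987791360374546470046043395996093750000,5,0⟩,⟨28751450750740151110312691122810193134277343750000000000,6,0⟩,⟨(-68489766312213872099072020287560037082547069335937500000),7,0⟩,⟨17351981218109579021040415150345465303723192763047187500,8,0⟩,⟨(-1385657340997156429915342121567337644498337547147976973),9,0⟩]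

/-- Certificate tree. -/
def tnu5 : OutT := (A (A (O l) (O l)) (A (A (O l) (A (O l) (A (O l) (A (O l) (O l))))) (A (A (A (A (O l) (O l)) (A (O l) (O l))) (A (A (O l) (O l)) (O l))) (A (A (O l) (O l)) (O l)))))

theorem hnu5 (x : ℝ) (h0 : 0 ≤ x) (h1 : x ≤ 1) : evalIL lnu5 x 0 ≤ 0 :=
  uni_le 9 65536 lnu5 (by norm_num) (by norm_num) (by decide +kernel)
    (chkOut_sound (uniPb 9 65536 lnu5) tnu5 0 32768 0 32768 (by decide +kernel)) x h0 h1

/-- Certificate polynomial. -/
def lnl5 : List ITm := [⟨(-14807456594212453637737780809402465820312500000000000000),0,0⟩,⟨204393252786456969261053018271923065185546875000000000000,1,0⟩,⟨(-874112308185617614253715146332979202270507812500000000000),2,0⟩,⟨482227568873557998021659790538251399993896484375000000000,3,0⟩,⟨559996453430939063744319207804463803768157958984375000000,4,0⟩,⟨(-381836447138305826620575036461012364029884338378906250000),5,0⟩,⟨(-28751450750740151110312691122810193134277343750000000000),6,0⟩,⟨68489766312213872099072020287560037082547069335937500000,7,0⟩,⟨(-17351981218109579021040415150345465303723192763047187500),8,0⟩,⟨1385657340997156429915342121567337644498337547147976973,9,0⟩]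

/-- Certificate tree. -/
def tnl5 : OutT := (A (A (A (A (O l) (O l)) (A (O l) (O l))) (A (O l) (O l))) (A (A (O l) (O l)) (A (O l) (A (O l) (A (O l) (A (O l) (A (O l) (O l))))))))

theorem hnl5 (x : ℝ) (h0 : 0 ≤ x) (h1 : x ≤ 1) : evalIL lnl5 x 0 ≤ 0 :=
  uni_le 9 65536 lnl5 (by norm_num) (by norm_num) (by decide +kernel)
    (chkOut_sound (uniPb 9 65536 lnl5) tnl5 0 32768 0 32768 (by decide +kernel)) x h0 h1

theorem apx5 (u : ℝ) (h0 : -(94367 / 312500 : ℝ) ≤ u) (h1 : u ≤ 2 * (94367 / 312500 : ℝ)) :
    |((1 + u)⁻¹) ^ 5 - evalZ Ax.p5 (3 * u) / Ax.D5| ≤ Ax.e5 * |u| ^ Ax.m5 := by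
  have hu : 0 < 1 + u := by norm_num at h0 ⊢; linarith
  refine apx_of_S 5 2 _ (S5 u) _ u hu ?_ ?_ ?_
  · simp only [Ax, evalZ_cons, evalZ_nil, S5]
    push_cast
    ring
  · rcases le_total 0 u with hs | hs
    · have hx := hpu5 (u / (2 * (94367 / 312500 : ℝ))) (by positivity) (by rw [div_le_one (by norm_num)]; exact h1)
      have e : evalIL lpu5 (u / (2 * (94367 / 312500 : ℝ))) 0 = 931322574615478515625000000000000000000000000000000000 * (S5 u - Ax.e5 * (1 + u) ^ 5) := by
        simp only [lpu5, evalIL, List.map_cons, List.map_nil, List.sum_cons, List.sum_nil, S5, Ax]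
        push_cast
        ring
      rw [e] at hx
      have := cmul_nonpos (by norm_num) hx
      simp only [Ax] at this ⊢
      linarith
    · have hx := hnu5 (-u / (94367 / 312500 : ℝ)) (by apply div_nonneg <;> [linarith; norm_num]) (by rw [div_le_one (by norm_num)]; linarith)
      have e : evalIL lnu5 (-u / (94367 / 312500 : ℝ)) 0 = 476837158203125000000000000000000000000000000000000000000 * (S5 u - Ax.e5 * (1 + u) ^ 5) := by
        simp only [lnu5, evalIL, List.map_cons, List.map_nil, List.sum_cons, List.sum_nil, S5, Ax]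
        push_cast
        ring
      rw [e] at hx
      have := cmul_nonpos (by norm_num) hx
      simp only [Ax] at this ⊢
      linarith
  · rcases le_total 0 u with hs | hs
    · have hx := hpl5 (u / (2 * (94367 / 312500 : ℝ))) (by positivity) (by rw [div_le_one (by norm_num)]; exact h1)
      have e : evalIL lpl5 (u / (2 * (94367 / 312500 : ℝ))) 0 = 931322574615478515625000000000000000000000000000000000 * (-S5 u - Ax.e5 * (1 + u) ^ 5) := by
        simp only [lpl5, evalIL, List.map_cons, List.map_nil, List.sum_cons, List.sum_nil, S5, Ax]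
        push_cast
        ring
      rw [e] at hx
      have := cmul_nonpos (by norm_num) hx
      simp only [Ax] at this ⊢
      linarith
    · have hx := hnl5 (-u / (94367 / 312500 : ℝ)) (by apply div_nonneg <;> [linarith; norm_num]) (by rw [div_le_one (by norm_num)]; linarith)
      have e : evalIL lnl5 (-u / (94367 / 312500 : ℝ)) 0 = 476837158203125000000000000000000000000000000000000000000 * (-S5 u - Ax.e5 * (1 + u) ^ 5) := by
        simp only [lnl5, evalIL, List.map_cons, List.map_nil, List.sum_cons, List.sum_nil, S5, Ax]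
        push_cast
        ring
      rw [e] at hx
      have := cmul_nonpos (by norm_num) hx
      simp only [Ax] at this ⊢
      linarith

theorem hAx : Ax.OK (-(94367 / 312500 : ℝ)) (2 * (94367 / 312500 : ℝ)) where
  e10 := by simp only [Ax]; norm_num
  e20 := by simp only [Ax]; norm_num
  e30 := by simp only [Ax]; norm_num
  e40 := by simp only [Ax]; norm_num
  e50 := by simp only [Ax]; norm_num
  h1 := fun u a b => by simpa using apx1 u a b
  h2 := apx2
  h3 := apx3
  h4 := apx4
  h5 := apx5

end Vale.Agent.P154.D8.K4
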