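import Vale.Agent.P154.D8.K4.Data
import Vale.Agent.P154.Check2

namespace Vale.Agent.P154.D8.K4

open Cert

/-- Chart (0, 0). -/
def P00 : Pb := chartPb false false Nd w G []

/-- Chart (0, 1). -/
def P01 : Pb := chartPb false true Nd w G []

/-- Chart (1, 0). -/
def P10 : Pb := chartPb true false Nd w G []

/-- Chart (1, 1). -/
def P11 : Pb := chartPb true true Nd w G []

/-- The offset. -/
def KK : ℕ := 81749619078542123485445026325988907666122803627436340899944335050228199090952768134551878266578358316619466622738124605193111060004601596343876476857746694976307432364076469310158345070361107955001481492256519126766829996241750851128887511795631888691491672345630967465671003964634890646646161408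

end Vale.Agent.P154.D8.K4
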